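import Vale.Agent.P245.QC.Sup

/-! P245: functional isoperimetry for functions whose super-level sets satisfy
the infinitesimal isoperimetric inequality (helper333, from QC/Sup of helper719) -/

open MeasureTheory Set Filter Topology
open scoped ENNReal ContDiff

namespace Vale.Agent.P245.H333

open Vale.Agent.P245.QC

variable {n : ℕ}

/-- infinitesimal isoperimetric inequality for one set -/
def Good (μ : Measure (EuclideanSpace ℝ (Fin n))) (κ : ℝ)
    (A : Set (EuclideanSpace ℝ (Fin n))) : Prop :=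
  ∃ δ : ℝ, 0 < δ ∧ ∀ r : ℝ, 0 < r → r ≤ δ →
    μ.real A * (1 + r * √(Real.log (1 / μ.real A)) / κ) ≤ μ.real (Metric.cthickening r A)

/-- upper bound for the increment, for `|f|` -/
theorem upper2 {f : EuclideanSpace ℝ (Fin n) → ℝ} (hf : ContDiff ℝ ∞ f)
    (hc : HasCompactSupport f) {γ : ℝ → ℝ} (hγ : Continuous γ)
    (hγ0 : ∀ t, 0 ≤ γ t) {ε : ℝ} (hε : 0 < ε) :
    ∃ δ > 0, ∀ r, 0 < r → r ≤ δ → ∀ x,
      Pr γ (Qs (fun y => |f y|) r x) - Pr γ |f x| ≤
        r * ((‖gradient f x‖ + ε) * (γ |f x| + ε)) := by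
  have hfc := hf.continuous
  have huc' : Continuous fun y => |f y| := hfc.abs
  obtain ⟨B, hB0, hB⟩ := bdd_of_compact hfc hc
  have hdiff : Differentiable ℝ f := hf.differentiable (by simp)
  have hdc : Continuous (fderiv ℝ f) := hf.continuous_fderiv (by simp)
  have hdcs : HasCompactSupport (fderiv ℝ f) := hc.fderiv ℝ
  obtain ⟨L, hL⟩ := hdcs.exists_bound_of_continuous hdc
  have hL0 : 0 ≤ L := (norm_nonneg _).trans (hL 0)
  have huc : UniformContinuous (fderiv ℝ f) := hdcs.uniformContinuous_of_continuous hdc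
  obtain ⟨δ1, hδ1, h1⟩ := Metric.uniformContinuous_iff.1 huc ε hε
  have hγu : UniformContinuousOn γ (Icc 0 B) :=
    isCompact_Icc.uniformContinuousOn_of_continuous hγ.continuousOn
  obtain ⟨δ2, hδ2, h2⟩ := Metric.uniformContinuousOn_iff.1 hγu ε hε
  refine ⟨min (δ1 / 2) (δ2 / (2 * (L + 1))), by positivity, fun r hr hrδ x => ?_⟩
  have hr1 : r < δ1 := lt_of_le_of_lt (hrδ.trans (min_le_left _ _)) (by linarith)
  have hr2 : r * (L + 1) < δ2 := by
    have := hrδ.trans (min_le_right _ _)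
    rw [le_div_iff₀ (by positivity)] at this
    nlinarith
  obtain ⟨h, hh, e⟩ := Qs_attained huc' hr.le x
  have hh' : ‖h‖ ≤ r := by simpa using hh
  have hng : ‖gradient f x‖ = ‖fderiv ℝ f x‖ := by
    rw [gradient, LinearIsometryEquiv.norm_map]
  have habs : |f (x + h)| - |f x| ≤ |f (x + h) - f x| := abs_sub_abs_le_abs_sub _ _
  -- first order bound
  have hfd : |f (x + h)| - |f x| ≤ r * (‖gradient f x‖ + ε) := by
    have hb : ∀ y ∈ Metric.closedBall x r, ‖fderiv ℝ f y - fderiv ℝ f x‖ ≤ ε := by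
      intro y hy
      have := h1 (a := y) (b := x) (lt_of_le_of_lt hy hr1)
      rw [dist_eq_norm] at this
      exact this.le
    have := (convex_closedBall x r).norm_image_sub_le_of_norm_fderiv_le'
      (fun y _ => hdiff y) hb (Metric.mem_closedBall_self hr.le)
      (y := x + h) (by simpa [dist_eq_norm] using hh')
    rw [add_sub_cancel_left, Real.norm_eq_abs] at this
    have h4 : |fderiv ℝ f x h| ≤ ‖fderiv ℝ f x‖ * ‖h‖ := (fderiv ℝ f x).le_opNorm h
    have h5 : |f (x + h) - f x| ≤ |f (x + h) - f x - fderiv ℝ f x h| + |fderiv ℝ f x h| := by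
      have := abs_add_le (f (x + h) - f x - fderiv ℝ f x h) (fderiv ℝ f x h)
      rwa [sub_add_cancel] at this
    rw [hng]
    nlinarith [norm_nonneg (fderiv ℝ f x), norm_nonneg h]
  -- Lipschitz bound
  have hlip : |f (x + h)| - |f x| ≤ L * r := by
    have := convex_univ.norm_image_sub_le_of_norm_fderiv_le (𝕜 := ℝ) (f := f) (C := L)
      (fun y _ => hdiff y) (fun y _ => hL y) (mem_univ x) (mem_univ (x + h))
    rw [add_sub_cancel_left, Real.norm_eq_abs] at this
    exact (habs.trans this).trans (mul_le_mul_of_nonneg_left hh' hL0)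
  have hge : |f x| ≤ Qs (fun y => |f y|) r x := le_Qs_self huc' hr.le x
  have hQB : Qs (fun y => |f y|) r x ≤ B := by rw [e]; exact hB _
  have hbound : ∀ t ∈ Icc |f x| (Qs (fun y => |f y|) r x), γ t ≤ γ |f x| + ε := by
    intro t ht
    have hd : dist t |f x| < δ2 := by
      rw [Real.dist_eq, abs_of_nonneg (by linarith [ht.1])]
      have : t - |f x| ≤ L * r := by
        have := ht.2
        rw [e] at this
        linarith
      nlinarith
    have := h2 t ⟨(abs_nonneg _).trans ht.1, ht.2.trans hQB⟩ |f x|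
      ⟨abs_nonneg _, hB x⟩ hd
    rw [Real.dist_eq] at this
    have := (abs_lt.1 this).2
    linarith
  have hsplit : Pr γ (Qs (fun y => |f y|) r x) - Pr γ |f x| =
      ∫ t in (|f x|)..(Qs (fun y => |f y|) r x), γ t := by
    unfold Pr
    rw [intervalIntegral.integral_interval_sub_left (hγ.intervalIntegrable _ _)
      (hγ.intervalIntegrable _ _)]
  rw [hsplit]
  calc ∫ t in (|f x|)..(Qs (fun y => |f y|) r x), γ t
      ≤ ∫ _t in (|f x|)..(Qs (fun y => |f y|) r x), (γ |f x| + ε) := by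
        apply intervalIntegral.integral_mono_on hge (hγ.intervalIntegrable _ _)
          (by simp) hbound
    _ = (Qs (fun y => |f y|) r x - |f x|) * (γ |f x| + ε) := by
        rw [intervalIntegral.integral_const, smul_eq_mul]
    _ ≤ (r * (‖gradient f x‖ + ε)) * (γ |f x| + ε) := by
        apply mul_le_mul_of_nonneg_right _ (by have := hγ0 |f x|; linarith)
        rw [e]
        exact hfd
    _ = r * ((‖gradient f x‖ + ε) * (γ |f x| + ε)) := by ring

/-- Fatou step -/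
theorem lower2 {μ : Measure (EuclideanSpace ℝ (Fin n))} [IsProbabilityMeasure μ] {κ : ℝ}
    (hκ : 0 < κ) {u : EuclideanSpace ℝ (Fin n) → ℝ}
    (hu : Continuous u) (hc : HasCompactSupport u) (hu0 : ∀ x, 0 ≤ u x) {M : ℝ}
    (hgood : ∀ᵐ t : ℝ, M < t → 0 < μ.real {x | t ≤ u x} → Good μ κ {x | t ≤ u x})
    {γ w : ℝ → ℝ} (hγ : Continuous γ)
    (hw : Continuous w) (hγ0 : ∀ t, 0 ≤ γ t) (hw0 : ∀ t, 0 ≤ w t) (hwM : ∀ t ≤ M, w t = 0)
    (hwγ : ∀ t, M < t → 0 < μ.real {x | t ≤ u x} →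
      w t ≤ γ t * √(Real.log (1 / μ.real {x | t ≤ u x}))) {J δ₀ : ℝ} (hδ₀ : 0 < δ₀) (hJ0 : 0 ≤ J)
    (hJ : ∀ r, 0 < r → r ≤ δ₀ →
      ∫ x, Pr γ (Qs u r x) ∂μ - ∫ x, Pr γ (u x) ∂μ ≤ r * J) :
    ∫ x, Pr w (u x) ∂μ ≤ κ * J := by
  obtain ⟨B, hB0, hB⟩ := bdd_of_compact hu hc
  have hfB : ∀ x, u x ≤ B := fun x => (le_abs_self _).trans (hB x)
  have hm : ∀ v : EuclideanSpace ℝ (Fin n) → ℝ, Measurable fun t : ℝ => μ {x | t ≤ v x} := by
    intro v
    exact Antitone.measurable fun s t hst => measure_mono fun x hx => le_trans hst hx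
  have hQ0 : ∀ r, 0 < r → ∀ x, 0 ≤ Qs u r x := fun r hr x =>
    (hu0 x).trans (le_Qs_self hu hr.le x)
  have hQB : ∀ r, 0 < r → ∀ x, Qs u r x ≤ B := by
    intro r hr x
    obtain ⟨h, -, e⟩ := Qs_attained hu hr.le x
    rw [e]
    exact hfB _
  -- integral of the increments
  have hinc : ∀ r, 0 < r → r ≤ δ₀ →
      ∫⁻ t in Ioi 0, ENNReal.ofReal (κ / r) *
        ((μ {x | t ≤ Qs u r x} - μ {x | t ≤ u x}) * ENNReal.ofReal (γ t)) ≤
      ENNReal.ofReal (κ * J) := by
    intro r hr hrδ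
    have m1 : Measurable fun t : ℝ => (μ {x | t ≤ Qs u r x} - μ {x | t ≤ u x}) *
        ENNReal.ofReal (γ t) := ((hm _).sub (hm _)).mul hγ.measurable.ennreal_ofReal
    have m2 : Measurable fun t : ℝ => μ {x | t ≤ u x} * ENNReal.ofReal (γ t) :=
      (hm u).mul hγ.measurable.ennreal_ofReal
    rw [lintegral_const_mul _ m1]
    have hadd : (∫⁻ t in Ioi 0, μ {x | t ≤ u x} * ENNReal.ofReal (γ t)) +
        (∫⁻ t in Ioi 0, (μ {x | t ≤ Qs u r x} - μ {x | t ≤ u x}) * ENNReal.ofReal (γ t)) =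
        ∫⁻ t in Ioi 0, μ {x | t ≤ Qs u r x} * ENNReal.ofReal (γ t) := by
      rw [← lintegral_add_left m2]
      refine lintegral_congr fun t => ?_
      rw [← add_mul]
      congr 1
      exact add_tsub_cancel_of_le (measure_mono fun x hx =>
        le_trans hx (le_Qs_self hu hr.le x))
    rw [← layer hγ hγ0 hu hfB hu0, ← layer hγ hγ0 (Qs_continuous hu r) (hQB r hr) (hQ0 r hr)]
      at hadd
    have i1 : 0 ≤ ∫ x, Pr γ (u x) ∂μ := integral_nonneg fun x => Pr_nonneg hγ0 (hu0 x)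
    have h1 := hJ r hr hrδ
    have h2 : ENNReal.ofReal (∫ x, Pr γ (Qs u r x) ∂μ) ≤
        ENNReal.ofReal (∫ x, Pr γ (u x) ∂μ) + ENNReal.ofReal (r * J) := by
      rw [← ENNReal.ofReal_add i1 (by positivity)]
      exact ENNReal.ofReal_le_ofReal (by linarith)
    rw [← hadd] at h2
    have h3 := (ENNReal.add_le_add_iff_left ENNReal.ofReal_ne_top).1 h2
    calc ENNReal.ofReal (κ / r) * _ ≤ ENNReal.ofReal (κ / r) * ENNReal.ofReal (r * J) := by
          gcongr
      _ = ENNReal.ofReal (κ * J) := by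
          rw [← ENNReal.ofReal_mul (by positivity)]
          congr 1
          field_simp
  -- the sequence of radii
  set ρ : ℕ → ℝ := fun k => δ₀ / (k + 1) with hρ
  have hρ0 : ∀ k, 0 < ρ k := fun k => by rw [hρ]; positivity
  have hρδ : ∀ k, ρ k ≤ δ₀ := fun k => by
    rw [hρ]
    apply div_le_self hδ₀.le
    have : (0 : ℝ) ≤ k := Nat.cast_nonneg k
    linarith
  have hρlim : Tendsto ρ atTop (𝓝 0) := by
    have h := tendsto_one_div_add_atTop_nhds_zero_nat (𝕜 := ℝ)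
    have h2 := h.const_mul δ₀
    rw [mul_zero] at h2
    refine h2.congr fun k => ?_
    rw [hρ]
    ring
  set G : ℕ → ℝ → ℝ≥0∞ := fun k t => ENNReal.ofReal (κ / ρ k) *
        ((μ {x | t ≤ Qs u (ρ k) x} - μ {x | t ≤ u x}) * ENNReal.ofReal (γ t)) with hG
  have hGm : ∀ k, Measurable (G k) := fun k =>
    (((hm _).sub (hm _)).mul hγ.measurable.ennreal_ofReal).const_mul _
  have hpt : ∀ t : ℝ, (M < t → 0 < μ.real {x | t ≤ u x} → Good μ κ {x | t ≤ u x}) →
      μ {x | t ≤ u x} * ENNReal.ofReal (w t) ≤ liminf (fun k => G k t) atTop := by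
    intro t hgt
    by_cases htM : t ≤ M
    · rw [hwM t htM]
      simp
    push Not at htM
    by_cases hp : μ.real {x | t ≤ u x} = 0
    · have : μ {x | t ≤ u x} = 0 := by
        rwa [measureReal_eq_zero_iff] at hp
      simp [this]
    have hp0 : 0 < μ.real {x | t ≤ u x} := lt_of_le_of_ne measureReal_nonneg (Ne.symm hp)
    obtain ⟨δ, hδ, hδr⟩ := hgt htM hp0
    have hev : ∀ᶠ k in atTop, ρ k ≤ δ := (hρlim.eventually (gt_mem_nhds hδ)).mono fun k hk => hk.le
    refine le_liminf_of_le (by isBoundedDefault) (hev.mono fun k hk => ?_)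
    have h1 := hδr (ρ k) (hρ0 k) hk
    rw [← setOf_le_Qs hu (hρ0 k).le] at h1
    rw [hG]
    simp only
    set p := μ.real {x | t ≤ u x} with hpdef
    set q := μ.real {x | t ≤ Qs u (ρ k) x} with hqdef
    have e1 : μ {x | t ≤ u x} = ENNReal.ofReal p := by
      rw [hpdef, ofReal_measureReal]
    have e2 : μ {x | t ≤ Qs u (ρ k) x} = ENNReal.ofReal q := by
      rw [hqdef, ofReal_measureReal]
    have hρk := hρ0 k
    rw [e1, e2, ← ENNReal.ofReal_sub _ hp0.le, ← ENNReal.ofReal_mul hp0.le,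
      ← ENNReal.ofReal_mul', ← ENNReal.ofReal_mul (by positivity)]
    · apply ENNReal.ofReal_le_ofReal
      have h2 := hwγ t htM hp0
      have h3 : p * √(Real.log (1 / p)) ≤ κ / ρ k * (q - p) := by
        have h4 : ρ k / κ * (p * √(Real.log (1 / p))) ≤ q - p := by
          have : p * (1 + ρ k * √(Real.log (1 / p)) / κ) =
              p + ρ k / κ * (p * √(Real.log (1 / p))) := by ring
          linarith
        calc p * √(Real.log (1 / p)) = κ / ρ k * (ρ k / κ * (p * √(Real.log (1 / p)))) := by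
              field_simp
          _ ≤ κ / ρ k * (q - p) := mul_le_mul_of_nonneg_left h4 (by positivity)
      calc p * w t ≤ p * (γ t * √(Real.log (1 / p))) := mul_le_mul_of_nonneg_left h2 hp0.le
        _ = p * √(Real.log (1 / p)) * γ t := by ring
        _ ≤ κ / ρ k * (q - p) * γ t := mul_le_mul_of_nonneg_right h3 (hγ0 t)
        _ = κ / ρ k * ((q - p) * γ t) := by ring
    · exact hγ0 t
  have hfat : ∫⁻ t in Ioi 0, μ {x | t ≤ u x} * ENNReal.ofReal (w t) ≤ ENNReal.ofReal (κ * J) := by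
    calc ∫⁻ t in Ioi 0, μ {x | t ≤ u x} * ENNReal.ofReal (w t)
        ≤ ∫⁻ t in Ioi 0, liminf (fun k => G k t) atTop :=
          lintegral_mono_ae ((ae_restrict_of_ae hgood).mono hpt)
      _ ≤ liminf (fun k => ∫⁻ t in Ioi 0, G k t) atTop := lintegral_liminf_le hGm
      _ ≤ ENNReal.ofReal (κ * J) := by
          refine liminf_le_of_le (by isBoundedDefault) fun b hb => ?_
          obtain ⟨k, hk⟩ := hb.exists
          exact hk.trans (hinc (ρ k) (hρ0 k) (hρδ k))
  rw [← layer hw hw0 hu hfB hu0] at hfat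
  exact (ENNReal.ofReal_le_ofReal_iff (by positivity)).1 hfat

/-- functional isoperimetry for `|f|` -/
theorem sup2 {μ : Measure (EuclideanSpace ℝ (Fin n))} [IsProbabilityMeasure μ] {κ : ℝ}
    (hκ : 0 < κ) {f : EuclideanSpace ℝ (Fin n) → ℝ} (hf : ContDiff ℝ ∞ f)
    (hc : HasCompactSupport f) {M : ℝ}
    (hgood : ∀ᵐ t : ℝ, M < t → 0 < μ.real {x | t ≤ |f x|} → Good μ κ {x | t ≤ |f x|})
    {γ w : ℝ → ℝ} (hγ : Continuous γ)
    (hw : Continuous w) (hγ0 : ∀ t, 0 ≤ γ t) (hw0 : ∀ t, 0 ≤ w t) (hwM : ∀ t ≤ M, w t = 0)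
    (hwγ : ∀ t, M < t → 0 < μ.real {x | t ≤ |f x|} →
      w t ≤ γ t * √(Real.log (1 / μ.real {x | t ≤ |f x|}))) :
    ∫ x, (∫ t in (0 : ℝ)..|f x|, w t) ∂μ ≤ κ * ∫ x, γ |f x| * ‖gradient f x‖ ∂μ := by
  have hfc := hf.continuous
  have huc : Continuous fun y => |f y| := hfc.abs
  have hucs : HasCompactSupport fun y => |f y| := hc.comp_left (g := fun t : ℝ => |t|) abs_zero
  obtain ⟨B, hB0, hB⟩ := bdd_of_compact hfc hc
  have hdc : Continuous (fderiv ℝ f) := hf.continuous_fderiv (by simp)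
  have hdcs : HasCompactSupport (fderiv ℝ f) := hc.fderiv ℝ
  obtain ⟨L, hL⟩ := hdcs.exists_bound_of_continuous hdc
  have hng : ∀ x, ‖gradient f x‖ = ‖fderiv ℝ f x‖ := by
    intro x
    rw [gradient, LinearIsometryEquiv.norm_map]
  have hgc : Continuous fun x => ‖gradient f x‖ := by
    simp_rw [hng]
    exact hdc.norm
  have hgi : Integrable (fun x => ‖gradient f x‖) μ := by
    refine int_bdd hgc (B := L) fun x => ?_
    rw [abs_of_nonneg (norm_nonneg _), hng]
    exact hL x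
  have hγb : ∃ Γ, ∀ x, |γ (|f x|)| ≤ Γ := by
    obtain ⟨Γ, hΓ⟩ := (isCompact_Icc (a := (0 : ℝ)) (b := B)).exists_bound_of_continuousOn
      hγ.continuousOn
    exact ⟨Γ, fun x => hΓ _ ⟨abs_nonneg _, hB x⟩⟩
  obtain ⟨Γ, hΓ⟩ := hγb
  have hγi : Integrable (fun x => γ |f x|) μ := int_bdd (hγ.comp huc) hΓ
  have hγgi : Integrable (fun x => γ |f x| * ‖gradient f x‖) μ := by
    refine int_bdd ((hγ.comp huc).mul hgc) (B := Γ * L) fun x => ?_
    rw [abs_mul]
    apply mul_le_mul (hΓ x) _ (abs_nonneg _) ((abs_nonneg _).trans (hΓ x))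
    rw [abs_of_nonneg (norm_nonneg _), hng]
    exact hL x
  have key : ∀ ε : ℝ, 0 < ε → ∫ x, Pr w |f x| ∂μ ≤
      κ * (∫ x, γ |f x| * ‖gradient f x‖ ∂μ + ε * ((∫ x, γ |f x| ∂μ)
        + (∫ x, ‖gradient f x‖ ∂μ) + ε)) := by
    intro ε hε
    obtain ⟨δ, hδ, h1⟩ := upper2 hf hc hγ hγ0 hε
    have hJ0 : 0 ≤ ∫ x, γ |f x| * ‖gradient f x‖ ∂μ + ε * ((∫ x, γ |f x| ∂μ)
        + (∫ x, ‖gradient f x‖ ∂μ) + ε) := by
      have a1 : 0 ≤ ∫ x, γ |f x| * ‖gradient f x‖ ∂μ :=
        integral_nonneg fun x => mul_nonneg (hγ0 _) (norm_nonneg _)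
      have a2 : 0 ≤ ∫ x, γ |f x| ∂μ := integral_nonneg fun x => hγ0 _
      have a3 : 0 ≤ ∫ x, ‖gradient f x‖ ∂μ := integral_nonneg fun x => norm_nonneg _
      positivity
    refine lower2 hκ huc hucs (fun x => abs_nonneg _) hgood hγ hw hγ0 hw0 hwM hwγ hδ hJ0 ?_
    intro r hr0 hrδ
    have hQ0 : ∀ x, 0 ≤ Qs (fun y => |f y|) r x := fun x =>
      (abs_nonneg _).trans (le_Qs_self huc hr0.le x)
    have hQB : ∀ x, Qs (fun y => |f y|) r x ≤ B := by
      intro x
      obtain ⟨h, -, e⟩ := Qs_attained huc hr0.le x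
      rw [e]
      exact hB _
    have h3 : ∫ x, Pr γ (Qs (fun y => |f y|) r x) ∂μ - ∫ x, Pr γ |f x| ∂μ ≤
        ∫ x, r * ((‖gradient f x‖ + ε) * (γ |f x| + ε)) ∂μ := by
      rw [← integral_sub (int_Pr hγ hγ0 (Qs_continuous huc r) hQB hQ0)
        (int_Pr hγ hγ0 huc hB (fun x => abs_nonneg _))]
      apply integral_mono ((int_Pr hγ hγ0 (Qs_continuous huc r) hQB hQ0).sub
        (int_Pr hγ hγ0 huc hB (fun x => abs_nonneg _))) _ (fun x => h1 r hr0 hrδ x)
      apply Integrable.const_mul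
      have : (fun x => (‖gradient f x‖ + ε) * (γ |f x| + ε)) = fun x =>
          γ |f x| * ‖gradient f x‖ + (ε * γ |f x| + (ε * ‖gradient f x‖ + ε * ε)) := by
        funext x
        ring
      rw [this]
      exact hγgi.add ((hγi.const_mul ε).add ((hgi.const_mul ε).add (integrable_const _)))
    rw [integral_const_mul] at h3
    have h4 : ∫ x, (‖gradient f x‖ + ε) * (γ |f x| + ε) ∂μ =
        ∫ x, γ |f x| * ‖gradient f x‖ ∂μ + ε * ((∫ x, γ |f x| ∂μ)
          + (∫ x, ‖gradient f x‖ ∂μ) + ε) := by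
      have : (fun x => (‖gradient f x‖ + ε) * (γ |f x| + ε)) = fun x =>
          γ |f x| * ‖gradient f x‖ + (ε * γ |f x| + (ε * ‖gradient f x‖ + ε * ε)) := by
        funext x
        ring
      have a1 : Integrable (fun x => ε * ‖gradient f x‖ + ε * ε) μ :=
        (hgi.const_mul ε).add (integrable_const _)
      have a2 : Integrable (fun x => ε * γ |f x| + (ε * ‖gradient f x‖ + ε * ε)) μ :=
        (hγi.const_mul ε).add a1
      rw [this, integral_add hγgi a2, integral_add (hγi.const_mul ε) a1,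
        integral_add (hgi.const_mul ε) (integrable_const _),
        integral_const_mul, integral_const_mul, integral_const]
      simp
      ring
    rw [h4] at h3
    exact h3
  have hlim : Tendsto (fun ε : ℝ => κ * (∫ x, γ |f x| * ‖gradient f x‖ ∂μ
      + ε * ((∫ x, γ |f x| ∂μ) + (∫ x, ‖gradient f x‖ ∂μ) + ε))) (𝓝[>] 0)
      (𝓝 (κ * (∫ x, γ |f x| * ‖gradient f x‖ ∂μ
      + 0 * ((∫ x, γ |f x| ∂μ) + (∫ x, ‖gradient f x‖ ∂μ) + 0)))) := by
    apply Tendsto.mono_left _ nhdsWithin_le_nhds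
    have : Continuous fun ε : ℝ => κ * (∫ x, γ |f x| * ‖gradient f x‖ ∂μ
      + ε * ((∫ x, γ |f x| ∂μ) + (∫ x, ‖gradient f x‖ ∂μ) + ε)) := by fun_prop
    exact this.tendsto 0
  rw [zero_mul, add_zero] at hlim
  refine ge_of_tendsto hlim ?_
  filter_upwards [self_mem_nhdsWithin] with ε hε
  exact key ε hε

end Vale.Agent.P245.H333
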