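import Vale.Agent.P245.H333.Union
import Vale.Agent.P245.QC.EB

/-! P245: entropy inequality for functions whose high super-level sets satisfy the
infinitesimal isoperimetric inequality (helper333, from QC/EB of helper440 and QC/Fin of helper783) -/

open MeasureTheory Set Filter Topology
open scoped ENNReal ContDiff

namespace Vale.Agent.P245.H333

open Vale.Agent.P245.QC Vale.Agent.P245.QC.H440

variable {n : ℕ}

theorem eb2 {μ : Measure (EuclideanSpace ℝ (Fin n))} [IsProbabilityMeasure μ] {κ : ℝ}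
    (hκ : 0 < κ) {f : EuclideanSpace ℝ (Fin n) → ℝ} (hf : ContDiff ℝ ∞ f)
    (hfc : HasCompactSupport f) {M : ℝ} (hM : 0 ≤ M)
    (hmed : ∀ t, M < t → μ.real {x | t ≤ |f x|} ≤ 1 / 2)
    (hgood : ∀ᵐ t : ℝ, M < t → 0 < μ.real {x | t ≤ |f x|} → Good μ κ {x | t ≤ |f x|})
    {G : ℝ} (hG : 0 < G) (hint : ∫ x, max (|f x| - M) 0 ^ 2 ∂μ ≤ G) :
    ∫ x, Pf M G |f x| ∂μ ≤ 64 * κ ^ 2 * ∫ x, ‖gradient f x‖ ^ 2 ∂μ := by
  have hfcont : Continuous fun x => |f x| := hf.continuous.abs
  have hucs : HasCompactSupport fun y => |f y| := hfc.comp_left (g := fun t : ℝ => |t|) abs_zero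
  have h0M : max (0 - M) 0 = 0 := max_eq_right (by linarith)
  have hint0 : Integrable (fun x => max (|f x| - M) 0 ^ 2) μ := by
    have hc : HasCompactSupport ((fun t : ℝ => max (t - M) 0 ^ 2) ∘ fun y => |f y|) :=
      hucs.comp_left (by simp only [h0M]; norm_num)
    exact Continuous.integrable_of_hasCompactSupport
      ((by fun_prop : Continuous fun t : ℝ => max (t - M) 0 ^ 2).comp hfcont) hc
  have hPint : Integrable (fun x => Pf M G |f x|) μ := by
    have hc : HasCompactSupport ((Pf M G) ∘ fun y => |f y|) :=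
      hucs.comp_left (by unfold Pf; rw [h0M]; simp)
    exact Continuous.integrable_of_hasCompactSupport ((cont_Pf hG).comp hfcont) hc
  have hfd : Continuous (fderiv ℝ f) := hf.continuous_fderiv (by norm_num)
  have hgr : ∀ x, ‖gradient f x‖ = ‖fderiv ℝ f x‖ := fun x => by
    unfold gradient; simp
  have hDc : HasCompactSupport (fun x => ‖fderiv ℝ f x‖) := (hfc.fderiv ℝ).norm
  have hDint : Integrable (fun x => ‖gradient f x‖ ^ 2) μ := by
    simp_rw [hgr]
    refine Continuous.integrable_of_hasCompactSupport (hfd.norm.pow 2) ?_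
    exact hDc.comp_left (g := fun t : ℝ => t ^ 2) (by norm_num)
  have hgint : Integrable (fun x => gf M G |f x| * ‖gradient f x‖) μ := by
    simp_rw [hgr]
    refine Continuous.integrable_of_hasCompactSupport
      (((cont_gf hG).comp hfcont).mul hfd.norm) ?_
    exact hDc.mul_left
  have key := sup2 hκ hf hfc hgood (cont_gf hG) (cont_wf hG) (fun t => gf_nonneg t)
    (fun t => wf_nonneg hG t)
    (fun t ht => by
      unfold wf
      rw [max_eq_right (by linarith : t - M ≤ 0)]; simp)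
    (fun t ht hpos => by
      refine wf_le_gf hG hpos (hmed t ht) ?_
      have h1 := mul_meas_ge_le_integral_of_nonneg (μ := μ)
        (f := fun x => max (|f x| - M) 0 ^ 2) (Eventually.of_forall fun x => by positivity) hint0
        (max (t - M) 0 ^ 2)
      have h2 : μ.real {x | t ≤ |f x|} ≤
          μ.real {x | max (t - M) 0 ^ 2 ≤ max (|f x| - M) 0 ^ 2} := by
        refine measureReal_mono (fun x hx => ?_)
        have hx' : t ≤ |f x| := hx
        show max (t - M) 0 ^ 2 ≤ max (|f x| - M) 0 ^ 2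
        exact pow_le_pow_left₀ (le_max_right _ _) (max_le_max (by linarith) le_rfl) 2
      calc μ.real {x | t ≤ |f x|} * max (t - M) 0 ^ 2
          ≤ μ.real {x | max (t - M) 0 ^ 2 ≤ max (|f x| - M) 0 ^ 2} * max (t - M) 0 ^ 2 := by
            gcongr
        _ = max (t - M) 0 ^ 2 * μ.real {x | max (t - M) 0 ^ 2 ≤ max (|f x| - M) 0 ^ 2} := by ring
        _ ≤ ∫ x, max (|f x| - M) 0 ^ 2 ∂μ := h1
        _ ≤ G := hint)
  simp_rw [int_wf hG hM] at key
  rw [integral_const_mul] at key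
  have hyoung : 8 * κ * ∫ x, gf M G |f x| * ‖gradient f x‖ ∂μ ≤
      1 / 2 * (∫ x, Pf M G |f x| ∂μ) + 32 * κ ^ 2 * ∫ x, ‖gradient f x‖ ^ 2 ∂μ := by
    rw [← integral_const_mul, ← integral_const_mul, ← integral_const_mul, ← integral_add
      (hPint.const_mul _) (hDint.const_mul _)]
    refine integral_mono (hgint.const_mul _) ((hPint.const_mul _).add (hDint.const_mul _))
      (fun x => ?_)
    simp only
    rw [← gf_sq hG]
    nlinarith [sq_nonneg (gf M G |f x| - 8 * κ * ‖gradient f x‖)]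
  nlinarith [key, hyoung]

theorem psi_le {N u : ℝ} (hN : 0 < N) (hu : 0 ≤ u) :
    u ^ 2 * Real.log (u ^ 2) - u ^ 2 * Real.log (N ^ 2) - u ^ 2 + N ^ 2 ≤
      9 * (u - N) ^ 2 * (1 + Real.log (max 1 (u / N))) := by
  rcases hu.eq_or_lt with h | h
  · rw [← h]
    simp only [zero_div]
    rw [max_eq_left (by norm_num : (0:ℝ) ≤ 1), Real.log_one]
    nlinarith [sq_nonneg N]
  set v := u / N with hv
  have hv0 : 0 < v := by positivity
  have hu' : u = v * N := by rw [hv]; field_simp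
  have hlog : Real.log (u ^ 2) - Real.log (N ^ 2) = 2 * Real.log v := by
    rw [Real.log_pow, Real.log_pow, hv, Real.log_div h.ne' hN.ne']
    push_cast
    ring
  have hl1 : 0 ≤ Real.log (max 1 v) := Real.log_nonneg (le_max_left _ _)
  have main : 2 * v ^ 2 * Real.log v - v ^ 2 + 1 ≤ 9 * (v - 1) ^ 2 * (1 + Real.log (max 1 v)) := by
    rcases le_total v 4 with h4 | h4
    · have h1 : Real.log v ≤ v - 1 := Real.log_le_sub_one_of_pos hv0
      have h2 : 2 * v ^ 2 * Real.log v ≤ 2 * v ^ 2 * (v - 1) :=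
        mul_le_mul_of_nonneg_left h1 (by positivity)
      have h3 : 2 * v ^ 2 * (v - 1) - v ^ 2 + 1 = (v - 1) ^ 2 * (2 * v + 1) := by ring
      have h5 : (v - 1) ^ 2 * (2 * v + 1) ≤ (v - 1) ^ 2 * 9 :=
        mul_le_mul_of_nonneg_left (by linarith) (sq_nonneg _)
      have h6 : 0 ≤ 9 * (v - 1) ^ 2 * Real.log (max 1 v) := by positivity
      nlinarith
    · have hmax : max 1 v = v := max_eq_right (by linarith)
      rw [hmax] at hl1 ⊢
      have h1 : 2 * v ^ 2 ≤ 9 * (v - 1) ^ 2 := by nlinarith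
      have h2 : 2 * v ^ 2 * Real.log v ≤ 9 * (v - 1) ^ 2 * Real.log v :=
        mul_le_mul_of_nonneg_right h1 hl1
      nlinarith [sq_nonneg (v - 1)]
  have e1 : u ^ 2 * Real.log (u ^ 2) - u ^ 2 * Real.log (N ^ 2) - u ^ 2 + N ^ 2 =
      N ^ 2 * (2 * v ^ 2 * Real.log v - v ^ 2 + 1) := by
    have : u ^ 2 * Real.log (u ^ 2) - u ^ 2 * Real.log (N ^ 2) =
        u ^ 2 * (2 * Real.log v) := by rw [← hlog]; ring
    rw [this, hu']
    ring
  have e2 : 9 * (u - N) ^ 2 * (1 + Real.log (max 1 v)) =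
      N ^ 2 * (9 * (v - 1) ^ 2 * (1 + Real.log (max 1 v))) := by
    rw [hu']
    ring
  rw [e1, e2]
  exact mul_le_mul_of_nonneg_left main (by positivity)

theorem pw2 {m W T M u : ℝ} (hm : 0 ≤ m) (hW : 0 < W) (hT : 2 ≤ T) (hM : M ≤ m + T * √W)
    (hu : 0 ≤ u) :
    u ^ 2 * Real.log (u ^ 2) - u ^ 2 * Real.log (m ^ 2 + W) - u ^ 2 + (m ^ 2 + W) ≤
      18 * (1 + Real.log (1 + 2 * T)) * ((u - m) ^ 2 + W) + 72 * Pf M W u := by
  set σ := √W with hσ
  have hσ0 : 0 < σ := Real.sqrt_pos.2 hW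
  have hσ2 : σ ^ 2 = W := Real.sq_sqrt hW.le
  set N := √(m ^ 2 + W) with hNdef
  have hN2 : N ^ 2 = m ^ 2 + W := Real.sq_sqrt (by positivity)
  have hN0 : 0 < N := Real.sqrt_pos.2 (by positivity)
  have hmN : m ≤ N := by
    rw [hNdef]
    exact Real.le_sqrt_of_sq_le (by linarith)
  have hσN : σ ≤ N := by
    rw [hNdef]
    exact Real.sqrt_le_sqrt (by nlinarith [sq_nonneg m])
  have hNle : N ≤ m + σ := by
    rw [hNdef]
    apply Real.sqrt_le_iff.2
    constructor
    · positivity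
    · nlinarith [mul_nonneg hm hσ0.le]
  have h1 := psi_le hN0 hu
  rw [hN2] at h1
  refine h1.trans ?_
  have hP0 : 0 ≤ Pf M W u := by
    unfold Pf
    have := one_le_Lf (M := M) hW u
    positivity
  have hLT : 0 ≤ Real.log (1 + 2 * T) := Real.log_nonneg (by linarith)
  rcases le_total u (m + 2 * T * σ) with h | h
  · have h2 : u / N ≤ 1 + 2 * T := by
      rw [div_le_iff₀ hN0]
      nlinarith
    have h3 : Real.log (max 1 (u / N)) ≤ Real.log (1 + 2 * T) :=
      Real.log_le_log (by positivity) (max_le (by linarith) h2)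
    have h4 : (u - N) ^ 2 ≤ 2 * ((u - m) ^ 2 + W) := by
      have h5 : (N - m) ^ 2 ≤ W := by
        rw [← hσ2]
        exact pow_le_pow_left₀ (by linarith) (by linarith) 2
      nlinarith [sq_nonneg ((u - m) + (N - m))]
    have h5 : 9 * (u - N) ^ 2 * (1 + Real.log (max 1 (u / N))) ≤
        9 * (2 * ((u - m) ^ 2 + W)) * (1 + Real.log (1 + 2 * T)) := by
      apply mul_le_mul
      · linarith
      · linarith
      · have : 0 ≤ Real.log (max 1 (u / N)) := Real.log_nonneg (le_max_left _ _)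
        linarith
      · positivity
    calc 9 * (u - N) ^ 2 * (1 + Real.log (max 1 (u / N))) ≤
        9 * (2 * ((u - m) ^ 2 + W)) * (1 + Real.log (1 + 2 * T)) := h5
      _ = 18 * (1 + Real.log (1 + 2 * T)) * ((u - m) ^ 2 + W) := by ring
      _ ≤ _ := by linarith
  · set g := u - M with hg
    have hg1 : (u - m) / 2 ≤ g := by
      rw [hg]
      linarith
    have hTσ : 2 * σ ≤ T * σ := mul_le_mul_of_nonneg_right hT hσ0.le
    have hg2 : 2 * σ ≤ g := by linarith
    have hg0 : 0 < g := by linarith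
    have hmax : max (u - M) 0 = g := max_eq_left hg0.le
    have huN : N ≤ u := by linarith
    have h2 : (u - N) ^ 2 ≤ 4 * g ^ 2 := by
      have : u - N ≤ 2 * g := by linarith
      calc (u - N) ^ 2 ≤ (2 * g) ^ 2 := pow_le_pow_left₀ (by linarith) this 2
        _ = 4 * g ^ 2 := by ring
    have hL1 := one_le_Lf (M := M) hW u
    have h3 : Real.log (max 1 (u / N)) ≤ Lf M W u := by
      unfold Lf
      rw [hmax]
      apply Real.log_le_log (by positivity)
      have hy : 2 ≤ g / σ := by rw [le_div_iff₀ hσ0]; linarith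
      have hgW : g ^ 2 / W = (g / σ) ^ 2 := by rw [div_pow, hσ2]
      have he : (1 : ℝ) ≤ Real.exp 1 := Real.one_le_exp (by norm_num)
      have h5 : 1 + 2 * (g / σ) ≤ Real.exp 1 + g ^ 2 / W := by
        rw [hgW]
        nlinarith
      refine max_le (by nlinarith) (le_trans ?_ h5)
      have h6 : u / N ≤ 1 + 2 * g / N := by
        rw [div_le_iff₀ hN0, add_mul, div_mul_cancel₀ _ hN0.ne']
        linarith
      have h7 : 2 * g / N ≤ 2 * (g / σ) := by
        rw [← mul_div_assoc]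
        exact div_le_div_of_nonneg_left (by positivity) hσ0 hσN
      linarith
    have h4 : 0 ≤ Real.log (max 1 (u / N)) := Real.log_nonneg (le_max_left _ _)
    have hPe : Pf M W u = g ^ 2 * Lf M W u := by
      unfold Pf
      rw [hmax]
    have h5 : 9 * (u - N) ^ 2 * (1 + Real.log (max 1 (u / N))) ≤
        9 * (4 * g ^ 2) * (2 * Lf M W u) := by
      apply mul_le_mul
      · linarith
      · linarith
      · linarith
      · positivity
    have h6 : 0 ≤ 18 * (1 + Real.log (1 + 2 * T)) * ((u - m) ^ 2 + W) := by positivity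
    calc 9 * (u - N) ^ 2 * (1 + Real.log (max 1 (u / N))) ≤
        9 * (4 * g ^ 2) * (2 * Lf M W u) := h5
      _ = 72 * Pf M W u := by rw [hPe]; ring
      _ ≤ _ := by linarith

theorem fin2 {μ : Measure (EuclideanSpace ℝ (Fin n))} [IsProbabilityMeasure μ] {κ P T : ℝ}
    (hκ : 0 < κ) (hT : 2 ≤ T) {f : EuclideanSpace ℝ (Fin n) → ℝ}
    (hf : ContDiff ℝ ∞ f) (hfc : HasCompactSupport f)
    (hgood : ∀ᵐ t : ℝ, |∫ x, f x ∂μ| + T * √((∫ x, f x ^ 2 ∂μ) - (∫ x, f x ∂μ) ^ 2) < t →
      0 < μ.real {x | t ≤ |f x|} → Good μ κ {x | t ≤ |f x|})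
    (hPoin : (∫ x, f x ^ 2 ∂μ) - (∫ x, f x ∂μ) ^ 2 ≤ P * ∫ x, ‖gradient f x‖ ^ 2 ∂μ) :
    Entropy μ (fun x => f x ^ 2) ≤
      (36 * P * (1 + Real.log (1 + 2 * T)) + 4608 * κ ^ 2) * ∫ x, ‖gradient f x‖ ^ 2 ∂μ := by
  set m : ℝ := ∫ x, f x ∂μ with hm
  set V : ℝ := (∫ x, f x ^ 2 ∂μ) - m ^ 2 with hV
  set I : ℝ := ∫ x, ‖gradient f x‖ ^ 2 ∂μ with hI
  have hcf : Continuous f := hf.continuous
  obtain ⟨B, hB⟩ := hfc.exists_bound_of_continuous hcf
  have hint : ∀ φ : ℝ → ℝ, Continuous φ → Integrable (fun x => φ (f x)) μ := by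
    intro φ hφ
    obtain ⟨D, hD⟩ := (isCompact_Icc (a := -B) (b := B)).exists_bound_of_continuousOn
      (f := φ) hφ.continuousOn
    refine Integrable.of_bound (hφ.comp hcf).aestronglyMeasurable D (ae_of_all _ fun x => ?_)
    exact hD _ (abs_le.1 (by simpa using hB x))
  have hi0 : Integrable f μ := hint (fun u => u) continuous_id
  have hi1 : Integrable (fun x => f x ^ 2 * Real.log (f x ^ 2)) μ :=
    hint (fun u => u ^ 2 * Real.log (u ^ 2))
      (Real.continuous_mul_log.comp (continuous_pow 2))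
  have hi2 : Integrable (fun x => f x ^ 2) μ := hint (fun u => u ^ 2) (by fun_prop)
  have hi3 : Integrable (fun x => (f x - m) ^ 2) μ := hint (fun u => (u - m) ^ 2) (by fun_prop)
  have hVe : ∫ x, (f x - m) ^ 2 ∂μ = V := by
    have e : (fun x => (f x - m) ^ 2) = fun x => f x ^ 2 - (2 * m) * f x + m ^ 2 := by
      funext x; ring
    have h1 : Integrable (fun x => f x ^ 2 - (2 * m) * f x) μ := hi2.sub (hi0.const_mul _)
    rw [e, integral_add h1 (integrable_const _), integral_sub hi2 (hi0.const_mul _),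
      integral_const_mul, integral_const, probReal_univ, one_smul, ← hm, hV]
    ring
  have hV0 : 0 ≤ V := by
    rw [← hVe]
    exact integral_nonneg fun x => sq_nonneg _
  set M : ℝ := |m| + T * √V with hMdef
  have hsV : 0 ≤ √V := Real.sqrt_nonneg _
  have hM0 : 0 ≤ M := by positivity
  have hmM : |m| ≤ M := by
    rw [hMdef]
    have : 0 ≤ T * √V := by positivity
    linarith
  have hmed : ∀ t, M < t → μ.real {x | t ≤ |f x|} ≤ 1 / 2 := by
    intro t ht
    have hd : T * √V < t - |m| := by linarith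
    have hd0 : 0 < t - |m| := lt_of_le_of_lt (by positivity) hd
    have h1 := mul_meas_ge_le_integral_of_nonneg (μ := μ)
      (f := fun x => (f x - m) ^ 2) (Eventually.of_forall fun x => sq_nonneg _) hi3
      ((t - |m|) ^ 2)
    rw [hVe] at h1
    have h2 : μ.real {x | t ≤ |f x|} ≤ μ.real {x | (t - |m|) ^ 2 ≤ (f x - m) ^ 2} := by
      refine measureReal_mono fun x hx => ?_
      have hx' : t ≤ |f x| := hx
      have h3 : t - |m| ≤ |f x - m| := by
        have := abs_sub_abs_le_abs_sub (f x) m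
        linarith
      show (t - |m|) ^ 2 ≤ (f x - m) ^ 2
      rw [← sq_abs (f x - m)]
      exact pow_le_pow_left₀ hd0.le h3 2
    have h4 : 4 * V ≤ (t - |m|) ^ 2 := by
      have h5 : 2 * √V ≤ t - |m| := by nlinarith
      have h6 : (2 * √V) ^ 2 ≤ (t - |m|) ^ 2 := pow_le_pow_left₀ (by positivity) h5 2
      have h7 : (2 * √V) ^ 2 = 4 * V := by rw [mul_pow, Real.sq_sqrt hV0]; norm_num
      linarith
    have h5 : (t - |m|) ^ 2 * μ.real {x | t ≤ |f x|} ≤ (t - |m|) ^ 2 * (1 / 4) := by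
      have := mul_le_mul_of_nonneg_left h2 (sq_nonneg (t - |m|))
      linarith
    have h6 := le_of_mul_le_mul_left h5 (by positivity)
    linarith
  set Λ : ℝ := 1 + Real.log (1 + 2 * T) with hΛ
  have hΛ1 : 1 ≤ Λ := by
    have : 0 ≤ Real.log (1 + 2 * T) := Real.log_nonneg (by linarith)
    linarith
  refine le_of_forall_pos_le_add fun ε hε => ?_
  have hε' : 0 < ε / (18 * Λ) := by positivity
  set W : ℝ := V + ε / (18 * Λ) with hW
  have hWpos : 0 < W := by positivity
  have hi4 : Integrable (fun x => max (|f x| - M) 0 ^ 2) μ :=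
    hint (fun u => max (|u| - M) 0 ^ 2) (by fun_prop)
  have hGle : ∫ x, max (|f x| - M) 0 ^ 2 ∂μ ≤ W := by
    have : ∫ x, max (|f x| - M) 0 ^ 2 ∂μ ≤ ∫ x, (f x - m) ^ 2 ∂μ := by
      refine integral_mono hi4 hi3 fun x => ?_
      show max (|f x| - M) 0 ^ 2 ≤ (f x - m) ^ 2
      rw [← sq_abs (f x - m)]
      refine pow_le_pow_left₀ (le_max_right _ _) (max_le ?_ (abs_nonneg _)) 2
      have := abs_sub_abs_le_abs_sub (f x) m
      linarith
    rw [hVe] at this
    linarith
  have hEBG := eb2 hκ hf hfc hM0 hmed hgood hWpos hGle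
  have hi5 : Integrable (fun x => Pf M W |f x|) μ :=
    hint (fun u => Pf M W |u|) ((cont_Pf hWpos).comp continuous_abs)
  have hi6 : Integrable (fun x => (|f x| - |m|) ^ 2) μ :=
    hint (fun u => (|u| - |m|) ^ 2) (by fun_prop)
  have h6le : ∫ x, (|f x| - |m|) ^ 2 ∂μ ≤ V := by
    rw [← hVe]
    refine integral_mono hi6 hi3 fun x => ?_
    show (|f x| - |m|) ^ 2 ≤ (f x - m) ^ 2
    rw [← sq_abs (f x - m), ← sq_abs (|f x| - |m|)]
    exact pow_le_pow_left₀ (abs_nonneg _) (abs_abs_sub_abs_le_abs_sub _ _) 2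
  set c : ℝ := |m| ^ 2 + W with hc
  have hcpos : 0 < c := by positivity
  set m2 : ℝ := ∫ x, f x ^ 2 ∂μ with hm2
  have hm20 : 0 ≤ m2 := integral_nonneg fun x => by positivity
  have hlog : m2 * Real.log c - m2 * Real.log m2 ≤ c - m2 := by
    rcases hm20.eq_or_lt with h | h
    · rw [← h]
      simpa using hcpos.le
    · have h1 : Real.log (c / m2) ≤ c / m2 - 1 := Real.log_le_sub_one_of_pos (by positivity)
      rw [Real.log_div hcpos.ne' h.ne'] at h1
      have h2 := mul_le_mul_of_nonneg_left h1 h.le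
      have h3 : m2 * (c / m2 - 1) = c - m2 := by
        field_simp
      nlinarith [h2, h3]
  have hleft : ∫ x, (f x ^ 2 * Real.log (f x ^ 2) - f x ^ 2 * Real.log c - f x ^ 2 + c) ∂μ =
      (∫ x, f x ^ 2 * Real.log (f x ^ 2) ∂μ) - m2 * Real.log c - m2 + c := by
    have hj1 : Integrable (fun x => f x ^ 2 * Real.log c) μ := hi2.mul_const _
    have hj2 : Integrable (fun x => f x ^ 2 * Real.log (f x ^ 2) - f x ^ 2 * Real.log c) μ :=
      hi1.sub hj1
    have hj3 : Integrable
        (fun x => f x ^ 2 * Real.log (f x ^ 2) - f x ^ 2 * Real.log c - f x ^ 2) μ := hj2.sub hi2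
    rw [integral_add hj3 (integrable_const c), integral_sub hj2 hi2, integral_sub hi1 hj1,
      integral_mul_const]
    simp [hm2]
  have hright : ∫ x, (18 * Λ * ((|f x| - |m|) ^ 2 + W) + 72 * Pf M W |f x|) ∂μ =
      18 * Λ * ((∫ x, (|f x| - |m|) ^ 2 ∂μ) + W) + 72 * ∫ x, Pf M W |f x| ∂μ := by
    have hj1 : Integrable (fun x => (|f x| - |m|) ^ 2 + W) μ := hi6.add (integrable_const _)
    rw [integral_add (hj1.const_mul _) (hi5.const_mul 72), integral_const_mul,
      integral_const_mul, integral_add hi6 (integrable_const _), integral_const]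
    simp
  have hmono : ∫ x, (f x ^ 2 * Real.log (f x ^ 2) - f x ^ 2 * Real.log c - f x ^ 2 + c) ∂μ ≤
      ∫ x, (18 * Λ * ((|f x| - |m|) ^ 2 + W) + 72 * Pf M W |f x|) ∂μ := by
    refine integral_mono (((hi1.sub (hi2.mul_const _)).sub hi2).add (integrable_const c))
      (((hi6.add (integrable_const _)).const_mul _).add (hi5.const_mul 72)) fun x => ?_
    have hMW : M ≤ |m| + T * √W := by
      rw [hMdef]
      have : √V ≤ √W := Real.sqrt_le_sqrt (by linarith)
      have := mul_le_mul_of_nonneg_left this (by linarith : 0 ≤ T)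
      linarith
    have h := pw2 (abs_nonneg m) hWpos hT hMW (abs_nonneg (f x))
    rw [sq_abs (f x)] at h
    exact h
  rw [hleft, hright] at hmono
  show (∫ x, f x ^ 2 * Real.log (f x ^ 2) ∂μ) - (∫ x, f x ^ 2 ∂μ) * Real.log (∫ x, f x ^ 2 ∂μ) ≤ _
  rw [← hm2]
  have h1 : 18 * Λ * ((∫ x, (|f x| - |m|) ^ 2 ∂μ) + W) ≤ 18 * Λ * (V + W) :=
    mul_le_mul_of_nonneg_left (by linarith) (by positivity)
  have h2 : 18 * Λ * (V + W) = 36 * Λ * V + ε := by
    rw [hW]
    field_simp
    ring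
  have h3 : 36 * Λ * V ≤ 36 * Λ * (P * I) :=
    mul_le_mul_of_nonneg_left hPoin (by positivity)
  have h4 : (36 * P * Λ + 4608 * κ ^ 2) * I = 36 * Λ * (P * I) + 72 * (64 * κ ^ 2 * I) := by ring
  have h5 : 72 * ∫ x, Pf M W |f x| ∂μ ≤ 72 * (64 * κ ^ 2 * I) :=
    mul_le_mul_of_nonneg_left hEBG (by norm_num)
  rw [h4]
  linarith only [hmono, hlog, h1, h2, h3, h5]

end Vale.Agent.P245.H333
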