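import Vale.Agent.P245.H333.Sup2

/-! P245: finite disjoint unions of convex sets satisfy the infinitesimal
isoperimetric inequality (helper333) -/

open MeasureTheory Set Filter Topology
open scoped ENNReal ContDiff

namespace Vale.Agent.P245.H333

open Vale.Agent.P245.QC

variable {n : ℕ}

theorem disj_thick {ι : Type*} (s : Finset ι) {K : ι → Set (EuclideanSpace ℝ (Fin n))}
    (hK : ∀ i ∈ s, IsCompact (K i)) (hd : (s : Set ι).PairwiseDisjoint K) :
    ∀ᶠ δ in 𝓝[>] (0 : ℝ), (s : Set ι).PairwiseDisjoint fun i => Metric.cthickening δ (K i) := by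
  have h1 : ∀ i ∈ s, ∀ j ∈ s, i ≠ j → ∀ᶠ δ in 𝓝[>] (0 : ℝ),
      Disjoint (Metric.cthickening δ (K i)) (Metric.cthickening δ (K j)) := by
    intro i hi j hj hij
    obtain ⟨δ, hδ, h⟩ := (hd hi hj hij).exists_cthickenings (hK i hi) (hK j hj).isClosed
    filter_upwards [Ioo_mem_nhdsGT hδ] with ε hε
    exact h.mono (Metric.cthickening_mono hε.2.le _) (Metric.cthickening_mono hε.2.le _)
  have h2 : ∀ᶠ δ in 𝓝[>] (0 : ℝ), ∀ i ∈ s, ∀ j ∈ s, i ≠ j →
      Disjoint (Metric.cthickening δ (K i)) (Metric.cthickening δ (K j)) := by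
    rw [eventually_all_finset]
    intro i hi
    rw [eventually_all_finset]
    intro j hj
    by_cases hij : i = j
    · exact Eventually.of_forall fun δ h => absurd hij h
    · exact (h1 i hi j hj hij).mono fun δ h _ => h
  exact h2.mono fun δ h i hi j hj hij => h i hi j hj hij

theorem good_union {μ : Measure (EuclideanSpace ℝ (Fin n))} [IsProbabilityMeasure μ] {κ r₀ : ℝ}
    (hκ : 0 < κ) (hr₀ : 0 < r₀) (hiso : Iso μ κ r₀) {ι : Type*} (s : Finset ι)
    {K : ι → Set (EuclideanSpace ℝ (Fin n))}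
    (hK : ∀ i ∈ s, IsCompact (K i)) (hc : ∀ i ∈ s, Convex ℝ (K i))
    (hd : (s : Set ι).PairwiseDisjoint K) {A : Set (EuclideanSpace ℝ (Fin n))}
    (hA : A = ⋃ i ∈ s, K i) (hp0 : 0 < μ.real A) (hp : μ.real A ≤ 1 / 2) : Good μ κ A := by
  obtain ⟨δ, hδ, hδ0, hδr⟩ := ((disj_thick s hK hd).and (Ioo_mem_nhdsGT hr₀)).exists
  refine ⟨δ, hδ0, fun r hr hrδ => ?_⟩
  have hdr : (s : Set ι).PairwiseDisjoint fun i => Metric.cthickening r (K i) :=
    fun i hi j hj hij => (hδ hi hj hij).mono (Metric.cthickening_mono hrδ _)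
      (Metric.cthickening_mono hrδ _)
  have hpA : μ.real A = ∑ i ∈ s, μ.real (K i) := by
    rw [hA]
    exact measureReal_biUnion_finset hd fun i hi => (hK i hi).measurableSet
  have hq : ∑ i ∈ s, μ.real (Metric.cthickening r (K i)) ≤
      μ.real (Metric.cthickening r A) := by
    rw [← measureReal_biUnion_finset hdr fun i hi => Metric.isClosed_cthickening.measurableSet]
    refine measureReal_mono (iUnion₂_subset fun i hi => ?_)
    refine Metric.cthickening_subset_of_subset r ?_
    rw [hA]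
    exact subset_biUnion_of_mem (u := fun i => K i) hi
  refine le_trans ?_ hq
  set S := √(Real.log (1 / μ.real A)) with hS
  have hS0 : 0 ≤ S := Real.sqrt_nonneg _
  rw [hpA, Finset.sum_mul]
  refine Finset.sum_le_sum fun i hi => ?_
  by_cases hi0 : μ.real (K i) = 0
  · rw [hi0, zero_mul]
    exact measureReal_nonneg
  have hpi : 0 < μ.real (K i) := lt_of_le_of_ne measureReal_nonneg (Ne.symm hi0)
  have hle : μ.real (K i) ≤ μ.real A := by
    refine measureReal_mono ?_
    rw [hA]
    exact subset_biUnion_of_mem (u := fun i => K i) hi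
  have h1 := hiso (K i) (hc i hi) (hK i hi).isClosed hpi (hle.trans hp) r hr.le
    (hrδ.trans hδr.le)
  refine le_trans ?_ h1
  apply mul_le_mul_of_nonneg_left _ hpi.le
  have h2 : S ≤ √(Real.log (1 / μ.real (K i))) := by
    apply Real.sqrt_le_sqrt
    apply Real.log_le_log (by positivity)
    exact one_div_le_one_div_of_le hpi hle
  have h3 : r * S / κ ≤ r * √(Real.log (1 / μ.real (K i))) / κ := by
    gcongr
  linarith

end Vale.Agent.P245.H333
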